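import Vale.Agent.Helper16.OT.TwoPoint

/-!
# Volumes of boxes in the unit cube and the vectors of the example
-/

namespace Vale.Agent.Helper16.OT

open MeasureTheory
open Classical

variable {d : ℕ}

/-- Volume of the part of the unit cube cut out by conditions on two coordinates. -/
lemma volume_box (i0 i1 : Fin d) (h01 : i0 ≠ i1) (I0 I1 : Set ℝ)
    (h0 : I0 ⊆ Set.Icc 0 1) (h1 : I1 ⊆ Set.Icc 0 1) :
    volume {x : Fin d → ℝ | x ∈ Set.Icc (0 : Fin d → ℝ) 1 ∧ x i0 ∈ I0 ∧ x i1 ∈ I1}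
      = volume I0 * volume I1 := by
  have hset : {x : Fin d → ℝ | x ∈ Set.Icc (0 : Fin d → ℝ) 1 ∧ x i0 ∈ I0 ∧ x i1 ∈ I1}
      = Set.pi Set.univ (fun i : Fin d =>
          if i = i0 then I0 else if i = i1 then I1 else Set.Icc (0 : ℝ) 1) := by
    ext x
    simp only [Set.mem_ofPred_eq, Set.mem_pi, Set.mem_univ, forall_true_left, Set.mem_Icc,
      Pi.le_def, Pi.zero_apply, Pi.one_apply]
    constructor
    · rintro ⟨⟨hx0, hx1⟩, hi0, hi1⟩ i
      by_cases hi : i = i0
      · subst hi; simpa using hi0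
      · by_cases hi' : i = i1
        · subst hi'; simpa [hi] using hi1
        · simpa [hi, hi'] using ⟨hx0 i, hx1 i⟩
    · intro h
      have hi0 : x i0 ∈ I0 := by simpa using h i0
      have hi1 : x i1 ∈ I1 := by
        have := h i1
        simpa [Ne.symm h01] using this
      refine ⟨⟨fun i => ?_, fun i => ?_⟩, hi0, hi1⟩
      · by_cases hi : i = i0
        · subst hi; exact (h0 hi0).1
        · by_cases hi' : i = i1
          · subst hi'; exact (h1 hi1).1
          · have := h i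
            simp only [hi, hi', if_false] at this
            exact this.1
      · by_cases hi : i = i0
        · subst hi; exact (h0 hi0).2
        · by_cases hi' : i = i1
          · subst hi'; exact (h1 hi1).2
          · have := h i
            simp only [hi, hi', if_false] at this
            exact this.2
  rw [hset, volume_pi, Measure.pi_pi]
  rw [Finset.prod_eq_mul i0 i1 h01]
  · simp [Ne.symm h01]
  · intro c _ hc
    simp [hc.1, hc.2]
  · intro h; exact absurd (Finset.mem_univ _) h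
  · intro h; exact absurd (Finset.mem_univ _) h

lemma volume_cube : volume (Set.Icc (0 : Fin d → ℝ) 1) = 1 := by
  rw [Real.volume_Icc_pi]
  simp

lemma unif_cube : unif (Set.Icc (0 : Fin d → ℝ) 1) = volume.restrict (Set.Icc (0 : Fin d → ℝ) 1) := by
  unfold unif
  rw [volume_cube]
  simp

/-- The vector with coordinate `c0` at `i0`, `c1` at `i1` and `0` elsewhere. -/
noncomputable def vec (i0 i1 : Fin d) (c0 c1 : ℝ) : Fin d → ℝ :=
  fun i => if i = i0 then c0 else if i = i1 then c1 else 0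

lemma sum_vec (i0 i1 : Fin d) (h01 : i0 ≠ i1) (c0 c1 : ℝ) (f : Fin d → ℝ → ℝ)
    (hf : ∀ i, f i 0 = 0) :
    ∑ i, f i (vec i0 i1 c0 c1 i) = f i0 c0 + f i1 c1 := by
  rw [Fintype.sum_eq_add i0 i1 h01]
  · simp [vec, Ne.symm h01]
  · intro x hx
    simp [vec, hx.1, hx.2, hf]

/-- Cost difference between the origin and the vector `vec i0 i1 c0 c1`. -/
lemma sqDist_zero_sub_vec (i0 i1 : Fin d) (h01 : i0 ≠ i1) (c0 c1 : ℝ) (x : Fin d → ℝ) :
    sqDist x 0 - sqDist x (vec i0 i1 c0 c1)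
      = 2 * c0 * x i0 + 2 * c1 * x i1 - c0 ^ 2 - c1 ^ 2 := by
  unfold sqDist
  rw [← Finset.sum_sub_distrib]
  have : ∀ i, (x i - (0 : Fin d → ℝ) i) ^ 2 - (x i - vec i0 i1 c0 c1 i) ^ 2
      = 2 * x i * vec i0 i1 c0 c1 i - (vec i0 i1 c0 c1 i) ^ 2 := by
    intro i; simp only [Pi.zero_apply]; ring
  simp only [this]
  rw [sum_vec i0 i1 h01 c0 c1 (fun i c => 2 * x i * c - c ^ 2) (by intro i; simp)]
  ring

lemma sqDist_vec_vec (i0 i1 : Fin d) (h01 : i0 ≠ i1) (c0 c1 e0 e1 : ℝ) :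
    sqDist (vec i0 i1 c0 c1) (vec i0 i1 e0 e1) = (c0 - e0) ^ 2 + (c1 - e1) ^ 2 := by
  unfold sqDist
  rw [Fintype.sum_eq_add i0 i1 h01]
  · simp [vec, Ne.symm h01]
  · intro x hx
    simp [vec, hx.1, hx.2]

lemma vec_zero (i0 i1 : Fin d) : vec i0 i1 0 0 = 0 := by
  funext i; simp [vec]

lemma vec_mem_cube (i0 i1 : Fin d) (c0 c1 : ℝ) (h0 : 0 ≤ c0) (h0' : c0 ≤ 1)
    (h1 : 0 ≤ c1) (h1' : c1 ≤ 1) : vec i0 i1 c0 c1 ∈ Set.Icc (0 : Fin d → ℝ) 1 := by
  constructor
  · intro i; simp only [vec, Pi.zero_apply]; split_ifs <;> simp [*]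
  · intro i; simp only [vec, Pi.one_apply]; split_ifs <;> simp [*]

end Vale.Agent.Helper16.OT
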