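import Mathlib

/-!
# Stability of quadratic optimal transport maps: definitions

The space `R^d` is modelled as `Fin d → ℝ` with Lebesgue measure `volume`
(the product measure) and with the squared Euclidean distance written out.
-/

namespace Vale.Agent.Helper16.OT

open MeasureTheory

/-- Squared Euclidean distance on `R^d`. -/
def sqDist {d : ℕ} (x y : Fin d → ℝ) : ℝ := ∑ i, (x i - y i) ^ 2

/-- The uniform probability measure on `K`: Lebesgue measure restricted to `K`,
divided by the volume of `K`. -/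
noncomputable def unif {d : ℕ} (K : Set (Fin d → ℝ)) : Measure (Fin d → ℝ) :=
  (volume K)⁻¹ • volume.restrict K

/-- Quadratic transport cost of a map `T` from the source `ρ`. -/
noncomputable def mapCost {d : ℕ} (ρ : Measure (Fin d → ℝ))
    (T : (Fin d → ℝ) → (Fin d → ℝ)) : ENNReal :=
  ∫⁻ x, ENNReal.ofReal (sqDist x (T x)) ∂ρ

/-- `T` is a quadratic optimal transport map from `ρ` to `μ`: a Borel map pushing
`ρ` forward to `μ` whose cost is minimal among all such maps. -/
def IsOptMap {d : ℕ} (ρ μ : Measure (Fin d → ℝ)) (T : (Fin d → ℝ) → (Fin d → ℝ)) : Prop :=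
  Measurable T ∧ ρ.map T = μ ∧
    ∀ T' : (Fin d → ℝ) → (Fin d → ℝ), Measurable T' → ρ.map T' = μ →
      mapCost ρ T ≤ mapCost ρ T'

/-- Squared 2-Wasserstein distance: the infimum over couplings `π` of `μ` and `ν`
of the integral of the squared Euclidean distance. -/
noncomputable def W2sq {d : ℕ} (μ ν : Measure (Fin d → ℝ)) : ENNReal :=
  ⨅ π : {π : Measure ((Fin d → ℝ) × (Fin d → ℝ)) //
      π.map Prod.fst = μ ∧ π.map Prod.snd = ν},
    ∫⁻ p, ENNReal.ofReal (sqDist p.1 p.2) ∂π.1

/-- The 2-Wasserstein distance. -/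
noncomputable def W2 {d : ℕ} (μ ν : Measure (Fin d → ℝ)) : ℝ :=
  Real.sqrt (W2sq μ ν).toReal

/-- The distance of two maps in `L^2(ρ)`. -/
noncomputable def L2dist {d : ℕ} (ρ : Measure (Fin d → ℝ))
    (S T : (Fin d → ℝ) → (Fin d → ℝ)) : ℝ :=
  Real.sqrt (∫⁻ x, ENNReal.ofReal (sqDist (S x) (T x)) ∂ρ).toReal

/-- The exponent `α` is admissible in dimension `d`: for every compact convex `K`
with nonempty interior and every nonempty compact `Y` there is a constant `C` with
`‖T_μ - T_ν‖_{L^2(ρ)} ≤ C * W_2(μ, ν) ^ α` for all probability measures `μ`, `ν`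
supported in `Y`, where `ρ` is the uniform probability measure on `K` and
`T_μ`, `T_ν` are quadratic optimal transport maps from `ρ` to `μ`, `ν`. -/
def Admissible (d : ℕ) (α : ℝ) : Prop :=
  ∀ K : Set (Fin d → ℝ), IsCompact K → Convex ℝ K → (interior K).Nonempty →
  ∀ Y : Set (Fin d → ℝ), IsCompact Y → Y.Nonempty →
  ∃ C : ℝ, ∀ μ ν : Measure (Fin d → ℝ),
    IsProbabilityMeasure μ → IsProbabilityMeasure ν → μ (compl Y) = 0 → ν (compl Y) = 0 →
    ∀ S T : (Fin d → ℝ) → (Fin d → ℝ),
      IsOptMap (unif K) μ S → IsOptMap (unif K) ν T →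
      L2dist (unif K) S T ≤ C * W2 μ ν ^ α

end Vale.Agent.Helper16.OT
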