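import Vale.Agent.Helper16.OT.Cube

/-!
# No exponent above 1/3 is admissible

On the unit cube, two-atom targets with a light atom show that the stability
exponent of quadratic optimal transport maps is at most `1/3`.
-/

namespace Vale.Agent.Helper16.OT

open MeasureTheory
open Classical

variable {d : ℕ}

/-- The half space `{x | 1 - a < x i0}`. -/
def setA (i0 : Fin d) (a : ℝ) : Set (Fin d → ℝ) := {x | 1 - a < x i0}

/-- The half space `{x | 1 + t / 2 < x i0 + t * x i1}`. -/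
def setB (i0 i1 : Fin d) (t : ℝ) : Set (Fin d → ℝ) := {x | 1 + t / 2 < x i0 + t * x i1}

lemma measurableSet_setA (i0 : Fin d) (a : ℝ) : MeasurableSet (setA i0 a) :=
  measurableSet_lt measurable_const (measurable_pi_apply i0)

lemma measurableSet_setB (i0 i1 : Fin d) (t : ℝ) : MeasurableSet (setB i0 i1 t) := by
  have h : Measurable (fun x : Fin d → ℝ => x i0 + t * x i1) := by fun_prop
  exact measurableSet_lt measurable_const h

lemma cube_setA (i0 i1 : Fin d) (h01 : i0 ≠ i1) (a : ℝ) (ha1 : a ≤ 1) :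
    volume.restrict (Set.Icc (0 : Fin d → ℝ) 1) (setA i0 a) = ENNReal.ofReal a := by
  rw [Measure.restrict_apply (measurableSet_setA i0 a)]
  have hset : setA i0 a ∩ Set.Icc (0 : Fin d → ℝ) 1
      = {x : Fin d → ℝ | x ∈ Set.Icc (0 : Fin d → ℝ) 1 ∧ x i0 ∈ Set.Ioc (1 - a) 1 ∧
          x i1 ∈ Set.Icc (0 : ℝ) 1} := by
    ext x
    constructor
    · rintro ⟨hA, hK⟩
      exact ⟨hK, ⟨hA, hK.2 i0⟩, ⟨hK.1 i1, hK.2 i1⟩⟩
    · rintro ⟨hK, hA, _⟩
      exact ⟨hA.1, hK⟩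
  rw [hset, volume_box i0 i1 h01 _ _ (fun y hy => ⟨by linarith [hy.1], hy.2⟩) subset_rfl,
    Real.volume_Ioc, Real.volume_Icc]
  simp

lemma cube_setB_le (i0 i1 : Fin d) (h01 : i0 ≠ i1) (t : ℝ) (ht0 : 0 < t) (ht1 : t ≤ 1) :
    volume.restrict (Set.Icc (0 : Fin d → ℝ) 1) (setB i0 i1 t) ≤ ENNReal.ofReal (t / 4) := by
  rw [Measure.restrict_apply (measurableSet_setB i0 i1 t)]
  have hsub : setB i0 i1 t ∩ Set.Icc (0 : Fin d → ℝ) 1
      ⊆ {x : Fin d → ℝ | x ∈ Set.Icc (0 : Fin d → ℝ) 1 ∧ x i0 ∈ Set.Icc (1 - t / 2) 1 ∧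
          x i1 ∈ Set.Icc (1 / 2 : ℝ) 1} := by
    rintro x ⟨hB, hK⟩
    have h0 := hK.1 i0
    have h0' := hK.2 i0
    have h1 := hK.1 i1
    have h1' := hK.2 i1
    simp only [Pi.zero_apply, Pi.one_apply] at h0 h0' h1 h1'
    have hB' : 1 + t / 2 < x i0 + t * x i1 := hB
    refine ⟨hK, ⟨?_, h0'⟩, ⟨?_, h1'⟩⟩
    · nlinarith
    · nlinarith
  refine (measure_mono hsub).trans ?_
  rw [volume_box i0 i1 h01 _ _ (fun y hy => ⟨by linarith [hy.1], hy.2⟩)
    (fun y hy => ⟨by linarith [hy.1], hy.2⟩), Real.volume_Icc, Real.volume_Icc,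
    ← ENNReal.ofReal_mul (by linarith)]
  apply ENNReal.ofReal_le_ofReal
  linarith

lemma cube_setB_ge (i0 i1 : Fin d) (h01 : i0 ≠ i1) (t : ℝ) (ht0 : 0 < t) (ht1 : t ≤ 1) :
    ENNReal.ofReal (t / 16) ≤ volume.restrict (Set.Icc (0 : Fin d → ℝ) 1) (setB i0 i1 t) := by
  rw [Measure.restrict_apply (measurableSet_setB i0 i1 t)]
  have hsub : {x : Fin d → ℝ | x ∈ Set.Icc (0 : Fin d → ℝ) 1 ∧ x i0 ∈ Set.Icc (1 - t / 4) 1 ∧
          x i1 ∈ Set.Ioc (3 / 4 : ℝ) 1}
      ⊆ setB i0 i1 t ∩ Set.Icc (0 : Fin d → ℝ) 1 := by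
    rintro x ⟨hK, h0, h1⟩
    refine ⟨?_, hK⟩
    show 1 + t / 2 < x i0 + t * x i1
    have := h0.1
    have := h1.1
    nlinarith
  refine le_trans ?_ (measure_mono hsub)
  rw [volume_box i0 i1 h01 _ _ (fun y hy => ⟨by linarith [hy.1], hy.2⟩)
    (fun y hy => ⟨by linarith [hy.1], hy.2⟩), Real.volume_Icc, Real.volume_Ioc,
    ← ENNReal.ofReal_mul (by linarith)]
  apply ENNReal.ofReal_le_ofReal
  linarith

lemma cube_setA_inter_setB_le (i0 i1 : Fin d) (h01 : i0 ≠ i1) (a t : ℝ) (ha0 : 0 ≤ a)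
    (ha1 : a ≤ 1) (ht0 : 0 < t) :
    volume.restrict (Set.Icc (0 : Fin d → ℝ) 1) (setA i0 a ∩ setB i0 i1 t)
      ≤ ENNReal.ofReal (a / 2) := by
  rw [Measure.restrict_apply ((measurableSet_setA i0 a).inter (measurableSet_setB i0 i1 t))]
  have hsub : setA i0 a ∩ setB i0 i1 t ∩ Set.Icc (0 : Fin d → ℝ) 1
      ⊆ {x : Fin d → ℝ | x ∈ Set.Icc (0 : Fin d → ℝ) 1 ∧ x i0 ∈ Set.Ioc (1 - a) 1 ∧
          x i1 ∈ Set.Icc (1 / 2 : ℝ) 1} := by
    rintro x ⟨⟨hA, hB⟩, hK⟩
    have h0 := hK.1 i0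
    have h0' := hK.2 i0
    have h1 := hK.1 i1
    have h1' := hK.2 i1
    simp only [Pi.zero_apply, Pi.one_apply] at h0 h0' h1 h1'
    have hB' : 1 + t / 2 < x i0 + t * x i1 := hB
    refine ⟨hK, ⟨hA, h0'⟩, ⟨?_, h1'⟩⟩
    nlinarith
  refine (measure_mono hsub).trans ?_
  rw [volume_box i0 i1 h01 _ _ (fun y hy => ⟨by linarith [hy.1], hy.2⟩)
    (fun y hy => ⟨by linarith [hy.1], hy.2⟩), Real.volume_Ioc, Real.volume_Icc,
    ← ENNReal.ofReal_mul (by linarith)]
  apply ENNReal.ofReal_le_ofReal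
  linarith

/-- The example: for `0 < t ≤ 1` there are two probability measures on the unit cube,
each with two atoms, whose optimal maps from the uniform measure on the cube are at
`L^2` distance at least `sqrt (t / 32)` while their Wasserstein distance is at most
`sqrt (t ^ 3 / 4)`. -/
lemma example_bounds (d : ℕ) (hd : 2 ≤ d) (t : ℝ) (ht0 : 0 < t) (ht1 : t ≤ 1) :
    ∃ μ ν : Measure (Fin d → ℝ), IsProbabilityMeasure μ ∧ IsProbabilityMeasure ν ∧
      μ (Set.Icc (0 : Fin d → ℝ) 1)ᶜ = 0 ∧ ν (Set.Icc (0 : Fin d → ℝ) 1)ᶜ = 0 ∧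
      ∃ S T : (Fin d → ℝ) → (Fin d → ℝ),
        IsOptMap (unif (Set.Icc (0 : Fin d → ℝ) 1)) μ S ∧
        IsOptMap (unif (Set.Icc (0 : Fin d → ℝ) 1)) ν T ∧
        Real.sqrt (t / 32) ≤ L2dist (unif (Set.Icc (0 : Fin d → ℝ) 1)) S T ∧
        W2 μ ν ≤ Real.sqrt (t ^ 3 / 4) := by
  set i0 : Fin d := ⟨0, by omega⟩ with hi0
  set i1 : Fin d := ⟨1, by omega⟩ with hi1
  have h01 : i0 ≠ i1 := by simp [hi0, hi1, Fin.ext_iff]
  rw [unif_cube]
  set ρ : Measure (Fin d → ℝ) := volume.restrict (Set.Icc (0 : Fin d → ℝ) 1) with hρ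
  have hprob : IsProbabilityMeasure ρ :=
    ⟨by rw [hρ, Measure.restrict_apply MeasurableSet.univ, Set.univ_inter, volume_cube]⟩
  have hBm := measurableSet_setB i0 i1 t
  have hBle : ρ (setB i0 i1 t) ≤ ENNReal.ofReal (t / 4) := cube_setB_le i0 i1 h01 t ht0 ht1
  have hBge : ENNReal.ofReal (t / 16) ≤ ρ (setB i0 i1 t) := cube_setB_ge i0 i1 h01 t ht0 ht1
  have hBtop : ρ (setB i0 i1 t) ≠ ⊤ := measure_ne_top ρ _
  set a : ℝ := (ρ (setB i0 i1 t)).toReal with ha
  have hBa : ρ (setB i0 i1 t) = ENNReal.ofReal a := (ENNReal.ofReal_toReal hBtop).symm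
  have ha_le : a ≤ t / 4 := ENNReal.toReal_le_of_le_ofReal (by linarith) hBle
  have ha_ge : t / 16 ≤ a := (ENNReal.ofReal_le_iff_le_toReal hBtop).mp hBge
  have ha0 : 0 ≤ a := by linarith
  have ha1 : a ≤ 1 := by linarith
  have hAm := measurableSet_setA i0 a
  have hAa : ρ (setA i0 a) = ENNReal.ofReal a := cube_setA i0 i1 h01 a ha1
  have hAB : ρ (setA i0 a) = ρ (setB i0 i1 t) := by rw [hAa, hBa]
  have hinter : ρ (setA i0 a ∩ setB i0 i1 t) ≤ ENNReal.ofReal (a / 2) :=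
    cube_setA_inter_setB_le i0 i1 h01 a t ha0 ha1 ht0
  have hdiff : ENNReal.ofReal (a / 2) ≤ ρ (setA i0 a \ setB i0 i1 t) := by
    have h := measure_sdiff_add_inter (μ := ρ) (setA i0 a) hBm
    rw [hAa] at h
    have h2 : ENNReal.ofReal (a / 2) + ENNReal.ofReal (a / 2) = ENNReal.ofReal a := by
      rw [← ENNReal.ofReal_add (by linarith) (by linarith)]; congr 1; ring
    have h3 : ENNReal.ofReal (a / 2) + ENNReal.ofReal (a / 2)
        ≤ ρ (setA i0 a \ setB i0 i1 t) + ENNReal.ofReal (a / 2) := by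
      rw [h2, ← h]
      exact add_le_add_right hinter _
    exact (ENNReal.add_le_add_iff_right ENNReal.ofReal_ne_top).mp h3
  -- the points
  set q : Fin d → ℝ := vec i0 i1 1 0 with hq
  set q' : Fin d → ℝ := vec i0 i1 1 t with hq'
  have hq0 : q ≠ 0 := by
    intro h
    have := congrFun h i0
    simp [hq, vec] at this
  have hq'0 : q' ≠ 0 := by
    intro h
    have := congrFun h i0
    simp [hq', vec] at this
  have hSm := measurable_twoMap hAm (0 : Fin d → ℝ) q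
  have hTm := measurable_twoMap hBm (0 : Fin d → ℝ) q'
  have hqK : q ∈ Set.Icc (0 : Fin d → ℝ) 1 :=
    vec_mem_cube i0 i1 1 0 zero_le_one le_rfl le_rfl zero_le_one
  have hq'K : q' ∈ Set.Icc (0 : Fin d → ℝ) 1 :=
    vec_mem_cube i0 i1 1 t zero_le_one le_rfl ht0.le ht1
  have h0K : (0 : Fin d → ℝ) ∈ Set.Icc (0 : Fin d → ℝ) 1 :=
    ⟨le_rfl, fun i => by simp⟩
  have hKm : MeasurableSet (Set.Icc (0 : Fin d → ℝ) 1)ᶜ := measurableSet_Icc.compl
  refine ⟨ρ.map (twoMap (setA i0 a) 0 q), ρ.map (twoMap (setB i0 i1 t) 0 q'),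
    Measure.isProbabilityMeasure_map hSm.aemeasurable,
    Measure.isProbabilityMeasure_map hTm.aemeasurable, ?_, ?_,
    twoMap (setA i0 a) 0 q, twoMap (setB i0 i1 t) 0 q', ?_, ?_, ?_, ?_⟩
  · rw [Measure.map_apply hSm hKm]
    have : twoMap (setA i0 a) 0 q ⁻¹' (Set.Icc (0 : Fin d → ℝ) 1)ᶜ = ∅ := by
      ext x
      simp only [Set.mem_preimage, Set.mem_compl_iff, Set.mem_empty_iff_false, iff_false,
        not_not, twoMap]
      split_ifs
      · exact hqK
      · exact h0K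
    rw [this]; simp
  · rw [Measure.map_apply hTm hKm]
    have : twoMap (setB i0 i1 t) 0 q' ⁻¹' (Set.Icc (0 : Fin d → ℝ) 1)ᶜ = ∅ := by
      ext x
      simp only [Set.mem_preimage, Set.mem_compl_iff, Set.mem_empty_iff_false, iff_false,
        not_not, twoMap]
      split_ifs
      · exact hq'K
      · exact h0K
    rw [this]; simp
  · -- optimality of S
    refine isOptMap_twoMap ρ hAm 0 q (Ne.symm hq0) (1 - 2 * a) (by linarith) ?_ ?_
    · intro x hx
      have h := sqDist_zero_sub_vec i0 i1 h01 1 0 x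
      have hx' : 1 - a < x i0 := hx
      rw [← hq] at h
      linarith
    · intro x hx
      have h := sqDist_zero_sub_vec i0 i1 h01 1 0 x
      have hx' : ¬ (1 - a < x i0) := hx
      rw [← hq] at h
      linarith [not_lt.mp hx']
  · -- optimality of T
    refine isOptMap_twoMap ρ hBm 0 q' (Ne.symm hq'0) (1 + t - t ^ 2) (by nlinarith) ?_ ?_
    · intro x hx
      have h := sqDist_zero_sub_vec i0 i1 h01 1 t x
      have hx' : 1 + t / 2 < x i0 + t * x i1 := hx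
      rw [← hq'] at h
      nlinarith
    · intro x hx
      have h := sqDist_zero_sub_vec i0 i1 h01 1 t x
      have hx' : ¬ (1 + t / 2 < x i0 + t * x i1) := hx
      rw [← hq'] at h
      nlinarith [not_lt.mp hx']
  · -- the L2 distance
    unfold L2dist
    apply Real.sqrt_le_sqrt
    have hlow := lintegral_sqDist_twoMap_ge ρ hAm hBm (0 : Fin d → ℝ) q q'
    have hqp : sqDist q 0 = 1 := by
      have := sqDist_vec_vec i0 i1 h01 1 0 0 0
      rw [vec_zero] at this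
      rw [hq, this]; norm_num
    rw [hqp, ENNReal.ofReal_one, one_mul] at hlow
    have hfin : ∫⁻ x, ENNReal.ofReal
        (sqDist (twoMap (setA i0 a) 0 q x) (twoMap (setB i0 i1 t) 0 q' x)) ∂ρ ≠ ⊤ := by
      have hbd : ∀ x, sqDist (twoMap (setA i0 a) 0 q x) (twoMap (setB i0 i1 t) 0 q' x) ≤ 3 := by
        intro x
        have e1 : sqDist q q' = t ^ 2 := by
          rw [hq, hq', sqDist_vec_vec i0 i1 h01]; ring
        have e2 : sqDist q 0 = 1 := hqp
        have e3 : sqDist (0 : Fin d → ℝ) q' = 1 + t ^ 2 := by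
          have := sqDist_vec_vec i0 i1 h01 0 0 1 t
          rw [vec_zero] at this
          rw [hq', this]; ring
        have e4 : sqDist (0 : Fin d → ℝ) 0 = 0 := sqDist_self 0
        simp only [twoMap]
        split_ifs <;> nlinarith
      have : ∫⁻ x, ENNReal.ofReal
          (sqDist (twoMap (setA i0 a) 0 q x) (twoMap (setB i0 i1 t) 0 q' x)) ∂ρ
          ≤ ∫⁻ _x, ENNReal.ofReal 3 ∂ρ :=
        lintegral_mono fun x => ENNReal.ofReal_le_ofReal (hbd x)
      rw [lintegral_const, measure_univ, mul_one] at this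
      exact ne_top_of_le_ne_top ENNReal.ofReal_ne_top this
    rw [← ENNReal.ofReal_le_iff_le_toReal hfin]
    refine le_trans ?_ (hdiff.trans hlow)
    apply ENNReal.ofReal_le_ofReal
    linarith
  · -- the Wasserstein distance
    unfold W2
    apply Real.sqrt_le_sqrt
    have hW := W2sq_twoMap_le ρ hAm hBm hAB (0 : Fin d → ℝ) q q'
    have e1 : sqDist q q' = t ^ 2 := by
      rw [hq, hq', sqDist_vec_vec i0 i1 h01]; ring
    rw [e1, hAa, ← ENNReal.ofReal_mul (by positivity)] at hW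
    apply ENNReal.toReal_le_of_le_ofReal (by positivity)
    refine hW.trans (ENNReal.ofReal_le_ofReal ?_)
    nlinarith [sq_nonneg t]

end Vale.Agent.Helper16.OT
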