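import Vale.Agent.Helper16.OT.Main

/-!
# No exponent above 1/3 is admissible: conclusion
-/

namespace Vale.Agent.Helper16.OT

open MeasureTheory

theorem not_admissible (d : ℕ) (hd : 2 ≤ d) (α : ℝ) (hα : 1 / 3 < α) : ¬ Admissible d α := by
  intro hAdm
  have hint : (interior (Set.Icc (0 : Fin d → ℝ) 1)).Nonempty := by
    refine ⟨fun _ => 1 / 2, ?_⟩
    rw [mem_interior_iff_mem_nhds]
    apply pi_Icc_mem_nhds <;> intro i <;> norm_num
  obtain ⟨C, hC⟩ := hAdm (Set.Icc 0 1) isCompact_Icc (convex_Icc 0 1) hint (Set.Icc 0 1)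
    isCompact_Icc ⟨0, le_rfl, fun i => by simp⟩
  set β : ℝ := (3 * α - 1) / 2 with hβ
  have hβpos : 0 < β := by rw [hβ]; linarith
  set ε : ℝ := 1 / (6 * |C| + 1) with hε
  have hden : 0 < 6 * |C| + 1 := by linarith [abs_nonneg C]
  have hεpos : 0 < ε := by rw [hε]; positivity
  have hε1 : ε ≤ 1 := by
    rw [hε, div_le_one hden]; linarith [abs_nonneg C]
  set t : ℝ := ε ^ (1 / β) with ht
  have ht0 : 0 < t := Real.rpow_pos_of_pos hεpos _
  have ht1 : t ≤ 1 := Real.rpow_le_one hεpos.le hε1 (by positivity)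
  have htβ : t ^ β = ε := by
    rw [ht, ← Real.rpow_mul hεpos.le, one_div, inv_mul_cancel₀ hβpos.ne', Real.rpow_one]
  obtain ⟨μ, ν, hμ, hν, hμY, hνY, S, T, hS, hT, hL, hW⟩ := example_bounds d hd t ht0 ht1
  have h := hC μ ν hμ hν hμY hνY S T hS hT
  have hW0 : 0 ≤ W2 μ ν := Real.sqrt_nonneg _
  have hα0 : 0 ≤ α := by linarith
  have hW' : W2 μ ν ≤ Real.sqrt (t ^ 3) :=
    hW.trans (Real.sqrt_le_sqrt (by nlinarith [pow_pos ht0 3]))
  have hpow : W2 μ ν ^ α ≤ Real.sqrt (t ^ 3) ^ α := Real.rpow_le_rpow hW0 hW' hα0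
  have hkey : Real.sqrt (t ^ 3) ^ α = Real.sqrt t * ε := by
    rw [← htβ, Real.sqrt_eq_rpow, Real.sqrt_eq_rpow, ← Real.rpow_natCast,
      ← Real.rpow_mul ht0.le, ← Real.rpow_mul ht0.le, ← Real.rpow_add ht0]
    congr 1
    rw [hβ]; push_cast; ring
  have hCW : C * W2 μ ν ^ α ≤ |C| * (Real.sqrt t * ε) := by
    calc C * W2 μ ν ^ α ≤ |C| * W2 μ ν ^ α :=
          mul_le_mul_of_nonneg_right (le_abs_self C) (Real.rpow_nonneg hW0 α)
      _ ≤ |C| * Real.sqrt (t ^ 3) ^ α := mul_le_mul_of_nonneg_left hpow (abs_nonneg C)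
      _ = |C| * (Real.sqrt t * ε) := by rw [hkey]
  have hst : 0 < Real.sqrt t := Real.sqrt_pos.mpr ht0
  have hCε : |C| * ε < 1 / 6 := by
    rw [hε, mul_one_div, div_lt_div_iff₀ hden (by norm_num)]
    linarith [abs_nonneg C]
  have hlt : |C| * (Real.sqrt t * ε) < Real.sqrt t / 6 := by nlinarith
  have hbig : Real.sqrt t / 6 < Real.sqrt (t / 32) := by
    rw [Real.lt_sqrt (by positivity), div_pow, Real.sq_sqrt ht0.le]
    linarith
  linarith

end Vale.Agent.Helper16.OT
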