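import Vale.Agent.Helper16.OT.Defs

/-!
# Maps with two values: push-forward, optimality, distances
-/

namespace Vale.Agent.Helper16.OT

open MeasureTheory
open Classical

variable {d : ℕ}

lemma sqDist_nonneg (x y : Fin d → ℝ) : 0 ≤ sqDist x y :=
  Finset.sum_nonneg fun _ _ => sq_nonneg _

lemma sqDist_self (x : Fin d → ℝ) : sqDist x x = 0 := by
  simp [sqDist]

lemma measurable_sqDist_pair :
    Measurable (fun p : (Fin d → ℝ) × (Fin d → ℝ) => ENNReal.ofReal (sqDist p.1 p.2)) := by
  unfold sqDist
  fun_prop

/-- The map taking the value `q` on `A` and `p` elsewhere. -/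
noncomputable def twoMap (A : Set (Fin d → ℝ)) (p q : Fin d → ℝ) :
    (Fin d → ℝ) → (Fin d → ℝ) :=
  fun x => if x ∈ A then q else p

lemma measurable_twoMap {A : Set (Fin d → ℝ)} (hA : MeasurableSet A) (p q : Fin d → ℝ) :
    Measurable (twoMap A p q) :=
  Measurable.ite hA measurable_const measurable_const

lemma map_twoMap (ρ : Measure (Fin d → ℝ)) {A : Set (Fin d → ℝ)} (hA : MeasurableSet A)
    (p q : Fin d → ℝ) :
    ρ.map (twoMap A p q) = ρ A • Measure.dirac q + ρ Aᶜ • Measure.dirac p := by
  ext s hs
  rw [Measure.map_apply (measurable_twoMap hA p q) hs]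
  simp only [Measure.add_apply, Measure.smul_apply, Measure.dirac_apply' _ hs, smul_eq_mul]
  by_cases hq : q ∈ s <;> by_cases hp : p ∈ s
  · have : twoMap A p q ⁻¹' s = Set.univ := by
      ext x; simp only [Set.mem_preimage, twoMap, Set.mem_univ, iff_true]
      split_ifs <;> assumption
    rw [this]
    simp [hq, hp, measure_add_measure_compl hA]
  · have : twoMap A p q ⁻¹' s = A := by
      ext x; simp only [Set.mem_preimage, twoMap]
      split_ifs with h <;> simp [h, hq, hp]
    rw [this]
    simp [hq, hp]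
  · have : twoMap A p q ⁻¹' s = Aᶜ := by
      ext x; simp only [Set.mem_preimage, twoMap]
      split_ifs with h <;> simp [h, hq, hp]
    rw [this]
    simp [hq, hp]
  · have : twoMap A p q ⁻¹' s = ∅ := by
      ext x; simp only [Set.mem_preimage, twoMap]
      split_ifs with h <;> simp [hq, hp]
    rw [this]
    simp [hq, hp]

/-- Bathtub principle: a two-valued map whose set `A` is a superlevel set of the cost
difference is an optimal map to its own push-forward. -/
lemma isOptMap_twoMap (ρ : Measure (Fin d → ℝ)) [IsFiniteMeasure ρ]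
    {A : Set (Fin d → ℝ)} (hA : MeasurableSet A) (p q : Fin d → ℝ) (hpq : p ≠ q)
    (s : ℝ) (hs : 0 ≤ s)
    (h1 : ∀ x ∈ A, sqDist x q + s ≤ sqDist x p)
    (h2 : ∀ x, x ∉ A → sqDist x p ≤ sqDist x q + s) :
    IsOptMap ρ (ρ.map (twoMap A p q)) (twoMap A p q) := by
  refine ⟨measurable_twoMap hA p q, rfl, ?_⟩
  intro T' hT' hmap
  have hSm := measurable_twoMap hA p q
  set A' : Set (Fin d → ℝ) := T' ⁻¹' {q} with hA'def
  have hA'm : MeasurableSet A' := hT' (measurableSet_singleton q)
  have hA'A : ρ A' = ρ A := by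
    have e1 : ρ A' = (ρ.map T') {q} := (Measure.map_apply hT' (measurableSet_singleton q)).symm
    have e2 : (ρ.map (twoMap A p q)) {q} = ρ (twoMap A p q ⁻¹' {q}) :=
      Measure.map_apply hSm (measurableSet_singleton q)
    have e3 : twoMap A p q ⁻¹' {q} = A := by
      ext x; simp only [Set.mem_preimage, twoMap, Set.mem_singleton_iff]
      split_ifs with h
      · simp [h]
      · simp [h, hpq]
    rw [e1, hmap, e2, e3]
  have hN : ρ (T' ⁻¹' ({p, q} : Set (Fin d → ℝ))ᶜ) = 0 := by
    have hm : MeasurableSet (({p, q} : Set (Fin d → ℝ))ᶜ) :=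
      ((measurableSet_singleton p).union (measurableSet_singleton q)).compl
    have hm' : MeasurableSet (({p, q} : Set (Fin d → ℝ))ᶜ) := hm
    rw [← Measure.map_apply hT' hm', hmap, Measure.map_apply hSm hm']
    have : twoMap A p q ⁻¹' ({p, q} : Set (Fin d → ℝ))ᶜ = ∅ := by
      ext x; simp only [Set.mem_preimage, twoMap, Set.mem_compl_iff, Set.mem_insert_iff,
        Set.mem_singleton_iff, Set.mem_empty_iff_false, iff_false, not_not]
      split_ifs <;> simp
    rw [this]; simp
  have hae : ∀ᵐ x ∂ρ, T' x = p ∨ T' x = q := by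
    rw [ae_iff]
    have : {x | ¬ (T' x = p ∨ T' x = q)} = T' ⁻¹' ({p, q} : Set (Fin d → ℝ))ᶜ := by
      ext x; simp
    rw [this]; exact hN
  -- pointwise inequality
  have hpt : ∀ᵐ x ∂ρ,
      ENNReal.ofReal (sqDist x (twoMap A p q x)) + ENNReal.ofReal s * A.indicator 1 x
        ≤ ENNReal.ofReal (sqDist x (T' x)) + ENNReal.ofReal s * A'.indicator 1 x := by
    filter_upwards [hae] with x hx
    by_cases hxA : x ∈ A
    · have hS : twoMap A p q x = q := by simp [twoMap, hxA]
      rw [hS, Set.indicator_of_mem hxA]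
      rcases hx with hx | hx
      · have hxA' : x ∉ A' := by
          simp only [hA'def, Set.mem_preimage, Set.mem_singleton_iff, hx]; exact hpq
        rw [hx, Set.indicator_of_notMem hxA']
        simp only [Pi.one_apply, mul_one, mul_zero, add_zero]
        rw [← ENNReal.ofReal_add (sqDist_nonneg _ _) hs]
        exact ENNReal.ofReal_le_ofReal (h1 x hxA)
      · have hxA' : x ∈ A' := by
          simp only [hA'def, Set.mem_preimage, Set.mem_singleton_iff, hx]
        rw [hx, Set.indicator_of_mem hxA']
    · have hS : twoMap A p q x = p := by simp [twoMap, hxA]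
      rw [hS, Set.indicator_of_notMem hxA]
      rcases hx with hx | hx
      · rw [hx]
        simp only [mul_zero, add_zero]
        exact le_self_add
      · have hxA' : x ∈ A' := by
          simp only [hA'def, Set.mem_preimage, Set.mem_singleton_iff, hx]
        rw [hx, Set.indicator_of_mem hxA']
        simp only [Pi.one_apply, mul_one, mul_zero, add_zero]
        rw [← ENNReal.ofReal_add (sqDist_nonneg _ _) hs]
        exact ENNReal.ofReal_le_ofReal (h2 x hxA)
  have hint := lintegral_mono_ae hpt
  have hg1 : Measurable (fun x => ENNReal.ofReal s * A.indicator (1 : (Fin d → ℝ) → ENNReal) x) :=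
    (measurable_const.indicator hA).const_mul _
  have hg2 : Measurable (fun x => ENNReal.ofReal s * A'.indicator (1 : (Fin d → ℝ) → ENNReal) x) :=
    (measurable_const.indicator hA'm).const_mul _
  have e1 : ∫⁻ a, ENNReal.ofReal s * A.indicator (1 : (Fin d → ℝ) → ENNReal) a ∂ρ
      = ENNReal.ofReal s * ρ A := by
    rw [lintegral_const_mul (ENNReal.ofReal s)
      (f := A.indicator (1 : (Fin d → ℝ) → ENNReal)) (measurable_const.indicator hA),
      lintegral_indicator_one hA]
  have e2 : ∫⁻ a, ENNReal.ofReal s * A'.indicator (1 : (Fin d → ℝ) → ENNReal) a ∂ρ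
      = ENNReal.ofReal s * ρ A' := by
    rw [lintegral_const_mul (ENNReal.ofReal s)
      (f := A'.indicator (1 : (Fin d → ℝ) → ENNReal)) (measurable_const.indicator hA'm),
      lintegral_indicator_one hA'm]
  rw [lintegral_add_right _ hg1, lintegral_add_right _ hg2, e1, e2, hA'A] at hint
  have hfin : ENNReal.ofReal s * ρ A ≠ ⊤ :=
    ENNReal.mul_ne_top ENNReal.ofReal_ne_top (measure_ne_top ρ A)
  exact (ENNReal.add_le_add_iff_right hfin).mp hint

/-- Lower bound for the squared `L^2` distance of two two-valued maps. -/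
lemma lintegral_sqDist_twoMap_ge (ρ : Measure (Fin d → ℝ))
    {A B : Set (Fin d → ℝ)} (hA : MeasurableSet A) (hB : MeasurableSet B)
    (p q q' : Fin d → ℝ) :
    ENNReal.ofReal (sqDist q p) * ρ (A \ B)
      ≤ ∫⁻ x, ENNReal.ofReal (sqDist (twoMap A p q x) (twoMap B p q' x)) ∂ρ := by
  rw [← lintegral_indicator_const (hA.diff hB)]
  apply lintegral_mono
  intro x
  show (A \ B).indicator (fun _ => ENNReal.ofReal (sqDist q p)) x
    ≤ ENNReal.ofReal (sqDist (twoMap A p q x) (twoMap B p q' x))
  by_cases hx : x ∈ A \ B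
  · rw [Set.indicator_of_mem hx]
    have h1 : twoMap A p q x = q := by simp [twoMap, hx.1]
    have h2 : twoMap B p q' x = p := by simp [twoMap, hx.2]
    rw [h1, h2]
  · rw [Set.indicator_of_notMem hx]
    exact bot_le

/-- Upper bound for the squared Wasserstein distance between the push-forwards of two
two-valued maps whose sets have equal measure. -/
lemma W2sq_twoMap_le (ρ : Measure (Fin d → ℝ)) [IsFiniteMeasure ρ]
    {A B : Set (Fin d → ℝ)} (hA : MeasurableSet A) (hB : MeasurableSet B)
    (hAB : ρ A = ρ B) (p q q' : Fin d → ℝ) :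
    W2sq (ρ.map (twoMap A p q)) (ρ.map (twoMap B p q'))
      ≤ ENNReal.ofReal (sqDist q q') * ρ A := by
  have hS := measurable_twoMap hA p q
  have hT2 := measurable_twoMap hA p q'
  have hpair : Measurable (fun x => (twoMap A p q x, twoMap A p q' x)) := hS.prodMk hT2
  have hcompl : ρ Aᶜ = ρ Bᶜ := by
    rw [measure_compl hA (measure_ne_top ρ A), measure_compl hB (measure_ne_top ρ B), hAB]
  have hfst : (ρ.map (fun x => (twoMap A p q x, twoMap A p q' x))).map Prod.fst
      = ρ.map (twoMap A p q) := by
    rw [Measure.map_map measurable_fst hpair]; rfl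
  have hsnd : (ρ.map (fun x => (twoMap A p q x, twoMap A p q' x))).map Prod.snd
      = ρ.map (twoMap B p q') := by
    rw [Measure.map_map measurable_snd hpair]
    have : (Prod.snd ∘ fun x => (twoMap A p q x, twoMap A p q' x)) = twoMap A p q' := rfl
    rw [this, map_twoMap ρ hA, map_twoMap ρ hB, hAB, hcompl]
  unfold W2sq
  refine iInf_le_of_le ⟨ρ.map (fun x => (twoMap A p q x, twoMap A p q' x)), hfst, hsnd⟩ ?_
  simp only
  rw [lintegral_map measurable_sqDist_pair hpair]
  rw [← lintegral_indicator_const hA]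
  apply le_of_eq
  apply lintegral_congr
  intro x
  by_cases hx : x ∈ A
  · simp [twoMap, hx]
  · simp [twoMap, hx, sqDist_self]

end Vale.Agent.Helper16.OT
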